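import Vale.Agent.P088.R2.H205.C.SpecI
import Vale.Agent.P088.R2.H960.W.Ims
import Vale.Agent.P088.R2.H551.E.Cur

/-!
# P088, stage 3, zone C: `RowEN`, the energy inequality of one slot with a weighted square

`∫ m Γ(a, a) ≤ 3 ∫ (m F + m |v| + h + k / κ) a² + κ ∫ ω (P a)²`.
-/

open MeasureTheory Set Filter
open scoped ContDiff Topology

noncomputable section

namespace Vale.Agent.P088.R2.H935.EN

open Vale.Agent.P088.LR Vale.Agent.P088.HY
open Vale.Agent.P088.R2.H961.GW Vale.Agent.P088.R2.H960.W Vale.Agent.P088.R2.H551.E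

variable {E ι : Type*} [NormedAddCommGroup E] [NormedSpace ℝ E] [Fintype ι]
  [MeasureSpace E] [FiniteDimensional ℝ E] [BorelSpace E] [(volume : Measure E).IsAddHaarMeasure]
  {σ : Sl E ι} {U : Set E} {θ v W m h om k a : E → ℝ}

theorem In_B (ok : σ.Ok U θ) {f h : E → ℝ} (hf : Sm U f) (hh : Te U h) :
    In U θ (fun z => σ.Λ f z * h z + σ.Γ f h z) = 0 := by
  have hU := ok.op
  rw [In_add hU ok.ts (hh.mul_left hU (ok.sL hf)) (ok.tG hf hh), In_L ok hf hh]
  ring

/-- The energy identity. -/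
theorem en_id (ok : σ.Ok U θ) (hv : Sm U v) (hW : Sm U W) (hm : Sm U m) (ha : Te U a) :
    In U θ (fun z => m z * σ.Γ a a z) = In U θ (fun z => -(m z * a z * σ.P v W a z) -
      a z * σ.Γ a m z + (m z * v z + m z * σ.F W z) * a z ^ 2 - a z ^ 2 * σ.Γ W m z) := by
  have hU := ok.op
  have sa := ha.sm
  have ta : Te U fun z => m z * a z := ha.mul_left hU hm
  have ta2 : Te U fun z => a z ^ 2 := ha.sq hU
  have tma2 : Te U fun z => m z * a z ^ 2 := ta2.mul_left hU hm
  have b1 := In_B ok sa ta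
  have b2 := In_B ok hW tma2
  have t1 : Te U fun z => σ.Λ a z * (m z * a z) + σ.Γ a (fun z => m z * a z) z :=
    (ta.mul_left hU (ok.sL sa)).add hU (ok.tG sa ta)
  have t2 : Te U fun z => σ.Λ W z * (m z * a z ^ 2) + σ.Γ W (fun z => m z * a z ^ 2) z :=
    (tma2.mul_left hU (ok.sL hW)).add hU (ok.tG hW tma2)
  have tR : Te U fun z => -(m z * a z * σ.P v W a z) - a z * σ.Γ a m z +
      (m z * v z + m z * σ.F W z) * a z ^ 2 - a z ^ 2 * σ.Γ W m z :=
    ((((ta.mul_right hU (ok.sP hv hW sa)).neg hU).sub hU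
      (ha.mul_right hU (ok.sG sa hm))).add hU (ta2.mul_left hU ((hm.mul hv).add
      (hm.mul (ok.sF hW))))).sub hU (ta2.mul_right hU (ok.sG hW hm))
  have e : In U θ (fun z => m z * σ.Γ a a z) = In U θ (fun z =>
      (-(m z * a z * σ.P v W a z) - a z * σ.Γ a m z +
      (m z * v z + m z * σ.F W z) * a z ^ 2 - a z ^ 2 * σ.Γ W m z) +
      (σ.Λ a z * (m z * a z) + σ.Γ a (fun z => m z * a z) z) +
      (σ.Λ W z * (m z * a z ^ 2) + σ.Γ W (fun z => m z * a z ^ 2) z)) := by
    refine In_congr hU fun z hz => ?_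
    rw [G_mul ok a hm sa hz, G_mul ok W hm ta2.sm hz, G_sq ok W sa hz]
    unfold Sl.P Sl.K
    ring
  rw [e, In_add hU ok.ts (tR.add hU t1) t2, In_add hU ok.ts tR t1, b1, b2]
  ring

/-- `|x y| ≤ (p + q) / 2` if `(x y)² ≤ p q`. -/
theorem young {x p q : ℝ} (hp : 0 ≤ p) (hq : 0 ≤ q) (h : x ^ 2 ≤ p * q) : |x| ≤ (p + q) / 2 := by
  refine abs_le_of_sq_le_sq ?_ (by positivity)
  nlinarith [sq_nonneg (p - q)]

theorem en (ok : σ.Ok U θ) (p : Psd σ U) (hv : Sm U v) (hW : Sm U W) (hm : Sm U m) (hh : Sm U h)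
    (ho : Sm U om) (hk : Sm U k) (ha : Te U a) {κ : ℝ} (κ0 : 0 < κ)
    (h0 : ∀ z ∈ U, 0 ≤ m z ∧ 0 ≤ h z ∧ 0 ≤ om z ∧ 0 ≤ k z)
    (h1 : ∀ z ∈ U, σ.Γ m m z ≤ m z * h z) (h2 : ∀ z ∈ U, m z ^ 2 ≤ om z * k z) :
    In U θ (fun z => m z * σ.Γ a a z) ≤
    3 * In U θ (fun z => (m z * σ.F W z + m z * |v z| + h z + k z / κ) * a z ^ 2) +
    κ * In U θ (fun z => om z * σ.P v W a z ^ 2) := by
  have hU := ok.op
  have sa := ha.sm
  have ta : Te U fun z => m z * a z := ha.mul_left hU hm
  have ta2 : Te U fun z => a z ^ 2 := ha.sq hU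
  have tR : Te U fun z => -(m z * a z * σ.P v W a z) - a z * σ.Γ a m z +
      (m z * v z + m z * σ.F W z) * a z ^ 2 - a z ^ 2 * σ.Γ W m z :=
    ((((ta.mul_right hU (ok.sP hv hW sa)).neg hU).sub hU
      (ha.mul_right hU (ok.sG sa hm))).add hU (ta2.mul_left hU ((hm.mul hv).add
      (hm.mul (ok.sF hW))))).sub hU (ta2.mul_right hU (ok.sG hW hm))
  have tG : Te U fun z => m z * σ.Γ a a z := (ok.tG sa ha).mul_left hU hm
  have tP : Te U fun z => om z * σ.P v W a z ^ 2 := ((ok.tP hv hW ha).sq hU).mul_left hU ho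
  have cc : ContinuousOn (fun z => m z * σ.F W z + m z * |v z| + h z + k z / κ) U :=
    (((hm.continuousOn.mul (ok.sF hW).continuousOn).add
      (hm.continuousOn.mul hv.continuousOn.abs)).add hh.continuousOn).add
      (hk.continuousOn.div_const _)
  have iR := te_int hU ok.ts tR
  have iG := te_int hU ok.ts tG
  have iP := te_int hU ok.ts tP
  have iC := ct_int hU ok.ts cc ta2
  have key : In U θ (fun z => -(m z * a z * σ.P v W a z) -
      a z * σ.Γ a m z + (m z * v z + m z * σ.F W z) * a z ^ 2 - a z ^ 2 * σ.Γ W m z) ≤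
      1 / 2 * In U θ (fun z => m z * σ.Γ a a z) +
      3 / 2 * In U θ (fun z => (m z * σ.F W z + m z * |v z| + h z + k z / κ) * a z ^ 2) +
      κ / 2 * In U θ (fun z => om z * σ.P v W a z ^ 2) := by
    have e1 := integral_add (iG.const_mul (1 / 2)) (iC.const_mul (3 / 2))
    have e2 := integral_add ((iG.const_mul (1 / 2)).add (iC.const_mul (3 / 2)))
      (iP.const_mul (κ / 2))
    have e3 := setIntegral_mono_on iR (((iG.const_mul (1 / 2)).add (iC.const_mul (3 / 2))).add
      (iP.const_mul (κ / 2))) hU.measurableSet fun z hz => by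
        obtain ⟨m0, hh0, o0, k0⟩ := h0 z hz
        have hθ := (ok.tp z hz).le
        have g0 : 0 ≤ σ.Γ a a z := p.G a hz
        have w0 : 0 ≤ σ.F W z := p.G W hz
        have y1 : |m z * a z * σ.P v W a z| ≤
            (κ * (om z * σ.P v W a z ^ 2) + k z / κ * a z ^ 2) / 2 := by
          refine young (by positivity) (by positivity) ?_
          have e : κ * (om z * σ.P v W a z ^ 2) * (k z / κ * a z ^ 2) =
              om z * k z * (a z * σ.P v W a z) ^ 2 := by
            field_simp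
          rw [e]
          have := mul_le_mul_of_nonneg_right (h2 z hz) (sq_nonneg (a z * σ.P v W a z))
          nlinarith [this]
        have y2 : |a z * σ.Γ a m z| ≤ (m z * σ.Γ a a z + h z * a z ^ 2) / 2 := by
          refine young (by positivity) (by positivity) ?_
          have c1 := p.cs ok a m hz
          have c2 := mul_le_mul_of_nonneg_left (h1 z hz) g0
          have c3 := mul_le_mul_of_nonneg_right (c1.trans c2) (sq_nonneg (a z))
          nlinarith [c3]
        have y3 : |a z ^ 2 * σ.Γ W m z| ≤ (m z * σ.F W z * a z ^ 2 + h z * a z ^ 2) / 2 := by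
          refine young (by positivity) (by positivity) ?_
          have c1 := p.cs ok W m hz
          have c2 := mul_le_mul_of_nonneg_left (h1 z hz) w0
          have c3 := mul_le_mul_of_nonneg_right (c1.trans c2) (sq_nonneg (a z ^ 2))
          have e : σ.Γ W W z = σ.F W z := rfl
          nlinarith [c3]
        have y4 : m z * v z * a z ^ 2 ≤ m z * |v z| * a z ^ 2 := by
          have := le_abs_self (v z)
          gcongr
        have n1 := (abs_le.1 y1).1
        have n2 := (abs_le.1 y2).1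
        have n3 := (abs_le.1 y3).1
        have pk : 0 ≤ k z / κ * a z ^ 2 := by positivity
        have ph : 0 ≤ h z * a z ^ 2 := by positivity
        have pv : 0 ≤ m z * |v z| * a z ^ 2 := by positivity
        have q : -(m z * a z * σ.P v W a z) - a z * σ.Γ a m z +
            (m z * v z + m z * σ.F W z) * a z ^ 2 - a z ^ 2 * σ.Γ W m z ≤
            1 / 2 * (m z * σ.Γ a a z) + 3 / 2 * ((m z * σ.F W z + m z * |v z| + h z + k z / κ) *
              a z ^ 2) + κ / 2 * (om z * σ.P v W a z ^ 2) := by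
          linarith
        have := mul_le_mul_of_nonneg_left q hθ
        simp only [Pi.add_apply]
        linarith
    simp only [Pi.add_apply] at e1 e2 e3
    rw [e2, e1] at e3
    rw [integral_const_mul, integral_const_mul, integral_const_mul] at e3
    exact e3
  have id := en_id ok hv hW hm ha
  linarith

/-- **RowEN.** -/
theorem rowEN : H205.CP.RowEN := by
  refine ⟨3, by norm_num, fun n _ _ _ ok p _ _ _ _ _ _ _ _ hv hW hm hh ho hk ha κ0 h0 h1 h2 => ?_⟩
  have : (volume : Measure (VV n)).IsAddHaarMeasure :=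
    Measure.prod.instIsAddHaarMeasure (volume : Measure (V n)) (volume : Measure (V n))
  exact en ok p hv hW hm hh ho hk ha κ0 h0 h1 h2

end Vale.Agent.P088.R2.H935.EN
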